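import Vale.Agent.P235.H134.Grid.Planar

/-!
# (G9a) the graph-theoretic part of: planar graphs are minors of grids
-/

namespace Vale.Agent.P235.H62

open SimpleGraph Vale.Agent.P235.H134

lemma conn_singleton {V : Type} (G : SimpleGraph V) (u : V) :
    (G.induce ({u} : Set V)).Connected := by
  have : Nonempty ({u} : Set V) := ⟨⟨u, rfl⟩⟩
  refine ⟨fun a b => ?_⟩
  have h : a = b := Subtype.ext (a.2.trans b.2.symm)
  rw [h]

/-- The part of a walk inside `K` before it enters `B`. -/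
lemma piece {V : Type} {G : SimpleGraph V} {K B : Set V} {u y : V} (w : G.Walk u y) :
    (∀ x ∈ w.support, x ∈ K) → u ∉ B → y ∈ B →
    ∃ P : Set V, P ⊆ K ∧ u ∈ P ∧ Disjoint P B ∧ (G.induce P).Connected ∧
      ∃ z ∈ P, ∃ y' ∈ B, G.Adj z y' := by
  induction w with
  | nil => intro _ h1 h2; exact absurd h2 h1
  | @cons u v y h p ih =>
    intro hK hu hy
    by_cases hv : v ∈ B
    · refine ⟨{u}, ?_, rfl, ?_, conn_singleton G u, u, rfl, v, hv, h⟩
      · rintro x rfl
        exact hK x (by simp)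
      · rw [Set.disjoint_singleton_left]; exact hu
    · obtain ⟨P, hPK, hvP, hPB, hPc, z, hz, y', hy', hzy⟩ :=
        ih (fun x hx => hK x (by simp [hx])) hv hy
      refine ⟨{u} ∪ P, ?_, Or.inl rfl, ?_, ?_, z, Or.inr hz, y', hy', hzy⟩
      · rintro x (rfl | hx)
        · exact hK x (by simp)
        · exact hPK hx
      · rw [Set.disjoint_union_left, Set.disjoint_singleton_left]
        exact ⟨hu, hPB⟩
      · exact connected_induce_union (conn_singleton G u).preconnected hPc.preconnected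
          rfl hvP h

/-- A connected set `K` meeting the disjoint sets `A` and `B` contains a connected set which meets
`A`, is disjoint from `B`, and has a neighbour in `B`. -/
lemma exists_piece {V : Type} {G : SimpleGraph V} {K A B : Set V} (hK : (G.induce K).Connected)
    (hA : (A ∩ K).Nonempty) (hB : (B ∩ K).Nonempty) (hAB : Disjoint A B) :
    ∃ P : Set V, P ⊆ K ∧ (P ∩ A).Nonempty ∧ Disjoint P B ∧ (G.induce P).Connected ∧
      ∃ z ∈ P, ∃ y' ∈ B, G.Adj z y' := by
  obtain ⟨x, hxA, hxK⟩ := hA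
  obtain ⟨y, hyB, hyK⟩ := hB
  obtain ⟨w⟩ := hK.preconnected ⟨x, hxK⟩ ⟨y, hyK⟩
  have hw : ∀ v ∈ (w.map (Embedding.induce K).toHom).support, v ∈ K := by
    intro v hv
    rw [Walk.support_map, List.mem_map] at hv
    obtain ⟨v', _, rfl⟩ := hv
    exact v'.2
  obtain ⟨P, h1, h2, h3, h4, h5⟩ := piece (B := B) (w.map (Embedding.induce K).toHom) hw
    (fun h => Set.disjoint_left.1 hAB hxA h) hyB
  exact ⟨P, h1, ⟨x, h2, hxA⟩, h3, h4, h5⟩

/-- **(G9a)** -/
theorem planarComb : PlanarCombStmt := by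
  classical
  intro V W _ _ G H X K hX hXd hK hKd hXK
  -- the two ends of an edge
  have hends : ∀ e : Sym2 W, e ∈ H.edgeSet → e.out.1 ≠ e.out.2 ∧ s(e.out.1, e.out.2) = e := by
    intro e he
    have h1 : s(e.out.1, e.out.2) = e := by
      have := Quot.out_eq e
      exact this
    refine ⟨?_, h1⟩
    have h2 : H.Adj e.out.1 e.out.2 := by
      rw [← mem_edgeSet, h1]; exact he
    exact h2.ne
  have hP : ∀ e : Sym2 W, ∃ P : Set V, e ∈ H.edgeSet → (P ⊆ K e ∧ (P ∩ X e.out.1).Nonempty ∧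
      Disjoint P (X e.out.2) ∧ (G.induce P).Connected ∧
      ∃ z ∈ P, ∃ y' ∈ X e.out.2, G.Adj z y') := by
    intro e
    by_cases he : e ∈ H.edgeSet
    · obtain ⟨h1, h2⟩ := hends e he
      have h3 : (X e.out.1 ∩ K e).Nonempty := (hXK e he _).1 (by
        have : e.out.1 ∈ s(e.out.1, e.out.2) := Sym2.mem_mk_left _ _
        rwa [h2] at this)
      have h4 : (X e.out.2 ∩ K e).Nonempty := (hXK e he _).1 (by
        have : e.out.2 ∈ s(e.out.1, e.out.2) := Sym2.mem_mk_right _ _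
        rwa [h2] at this)
      obtain ⟨P, hP⟩ := exists_piece (hK e he) h3 h4 (hXd _ _ h1)
      exact ⟨P, fun _ => hP⟩
    · exact ⟨∅, fun h => absurd h he⟩
  choose P hP using hP
  set μ : W → Set V := fun a => X a ∪ {v | ∃ e ∈ H.edgeSet, e.out.1 = a ∧ v ∈ P e} with hμ
  have hXP : ∀ a, ∀ e ∈ H.edgeSet, a ≠ e.out.1 → ∀ v, v ∈ X a → v ∈ P e → False := by
    intro a e he hne v hv hv'
    obtain ⟨h1, -, h3, -⟩ := hP e he
    have h4 : a ∈ e := (hXK e he a).2 ⟨v, hv, h1 hv'⟩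
    rw [← (hends e he).2, Sym2.mem_iff] at h4
    rcases h4 with h4 | h4
    · exact hne h4
    · rw [h4] at hv
      exact Set.disjoint_left.1 h3 hv' hv
  refine ⟨μ, ?_, ?_, ?_⟩
  · intro a
    obtain ⟨⟨u, hu⟩⟩ := (hX a).nonempty
    refine induce_connected_of_patches u (Or.inl hu) ?_
    rintro v (hv | ⟨e, he, rfl, hv⟩)
    · exact ⟨X a, Set.subset_union_left, hu, hv, (hX a).preconnected _ _⟩
    · obtain ⟨-, h2, -, h4, -⟩ := hP e he
      have hc := induce_union_connected (hX e.out.1).preconnected h4.preconnected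
        (by rw [Set.inter_comm]; exact h2)
      refine ⟨X e.out.1 ∪ P e, ?_, Or.inl hu, Or.inr hv, hc.preconnected _ _⟩
      rintro x (hx | hx)
      · exact Or.inl hx
      · exact Or.inr ⟨e, he, rfl, hx⟩
  · intro a b hab
    rw [Set.disjoint_left]
    rintro v (hv | ⟨e, he, rfl, hv⟩) (hv' | ⟨e', he', rfl, hv'⟩)
    · exact Set.disjoint_left.1 (hXd a b hab) hv hv'
    · exact hXP a e' he' hab v hv hv'
    · exact hXP b e he hab.symm v hv' hv
    · have hne : e ≠ e' := fun h => hab (by rw [h])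
      exact Set.disjoint_left.1 (hKd e he e' he' hne) ((hP e he).1 hv) ((hP e' he').1 hv')
  · intro a b hab
    have he : s(a, b) ∈ H.edgeSet := hab
    obtain ⟨-, h2⟩ := hends _ he
    obtain ⟨-, -, -, -, z, hz, y, hy, hzy⟩ := hP _ he
    have hz' : z ∈ μ (s(a, b) : Sym2 W).out.1 := Or.inr ⟨_, he, rfl, hz⟩
    have hy' : y ∈ μ (s(a, b) : Sym2 W).out.2 := Or.inl hy
    rw [Sym2.eq_iff] at h2
    rcases h2 with ⟨h3, h4⟩ | ⟨h3, h4⟩
    · rw [h3] at hz'; rw [h4] at hy'
      exact ⟨z, hz', y, hy', hzy⟩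
    · rw [h3] at hz'; rw [h4] at hy'
      exact ⟨y, hy', z, hz', hzy.symm⟩

end Vale.Agent.P235.H62
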