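import Vale.Agent.P235.H134.Grid.Planar

/-!
# The squares of a square mesh met by a connected set of the plane form a connected set of the grid
-/

namespace Vale.Agent.P235.H62

open SimpleGraph Vale.Agent.P235.H134

/-- The closed square number `c = (i, j)` of the mesh with corner `o` and mesh size `ε`. -/
def Sq (o : ℝ × ℝ) (ε : ℝ) {r : ℕ} (c : Fin r × Fin r) : Set (ℝ × ℝ) :=
  Set.Icc (o.1 + (c.1.val : ℝ) * ε) (o.1 + ((c.1.val : ℝ) + 1) * ε) ×ˢ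
    Set.Icc (o.2 + (c.2.val : ℝ) * ε) (o.2 + ((c.2.val : ℝ) + 1) * ε)

/-- The squares met by `S`. -/
def cells (o : ℝ × ℝ) (ε : ℝ) (r : ℕ) (S : Set (ℝ × ℝ)) : Set (Fin r × Fin r) :=
  {c | (S ∩ Sq o ε c).Nonempty}

lemma isClosed_Sq (o : ℝ × ℝ) (ε : ℝ) {r : ℕ} (c : Fin r × Fin r) : IsClosed (Sq o ε c) :=
  isClosed_Icc.prod isClosed_Icc

lemma near_of_Icc {a ε x : ℝ} (hε : 0 < ε) {r : ℕ} {i i' : Fin r}
    (h : x ∈ Set.Icc (a + (i.val : ℝ) * ε) (a + ((i.val : ℝ) + 1) * ε))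
    (h' : x ∈ Set.Icc (a + (i'.val : ℝ) * ε) (a + ((i'.val : ℝ) + 1) * ε)) :
    i = i' ∨ (pathGraph r).Adj i i' := by
  have h1 : (i.val : ℝ) * ε ≤ ((i'.val : ℝ) + 1) * ε := by linarith [h.1, h'.2]
  have h2 : (i'.val : ℝ) * ε ≤ ((i.val : ℝ) + 1) * ε := by linarith [h.2, h'.1]
  have h3 : (i.val : ℝ) ≤ (i'.val : ℝ) + 1 := le_of_mul_le_mul_right h1 hε
  have h4 : (i'.val : ℝ) ≤ (i.val : ℝ) + 1 := le_of_mul_le_mul_right h2 hε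
  have h5 : i.val ≤ i'.val + 1 := by exact_mod_cast h3
  have h6 : i'.val ≤ i.val + 1 := by exact_mod_cast h4
  rw [pathGraph_adj, Fin.ext_iff]
  omega

/-- Two squares of `cells S` with a common point in `S` are joined inside `cells S`. -/
lemma reach_of_common {o : ℝ × ℝ} {ε : ℝ} (hε : 0 < ε) {r : ℕ} {S : Set (ℝ × ℝ)} {x : ℝ × ℝ}
    (hx : x ∈ S) {c c' : Fin r × Fin r} (hc : x ∈ Sq o ε c) (hc' : x ∈ Sq o ε c') :
    ((grid r).induce (cells o ε r S)).Reachable ⟨c, x, hx, hc⟩ ⟨c', x, hx, hc'⟩ := by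
  have hm : x ∈ Sq o ε (c.1, c'.2) := ⟨hc.1, hc'.2⟩
  have h1 : ((grid r).induce (cells o ε r S)).Reachable ⟨c, x, hx, hc⟩
      ⟨(c.1, c'.2), x, hx, hm⟩ := by
    rcases near_of_Icc hε hc.2 hc'.2 with h | h
    · have h2 : c = (c.1, c'.2) := Prod.ext rfl h
      have h3 : (⟨c, x, hx, hc⟩ : cells o ε r S) = ⟨(c.1, c'.2), x, hx, hm⟩ := Subtype.ext h2
      rw [h3]
    · refine Adj.reachable ?_
      rw [comap_adj]
      exact (boxProd_adj).2 (Or.inr ⟨h, rfl⟩)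
  have h2 : ((grid r).induce (cells o ε r S)).Reachable ⟨(c.1, c'.2), x, hx, hm⟩
      ⟨c', x, hx, hc'⟩ := by
    rcases near_of_Icc hε hc.1 hc'.1 with h | h
    · have h2 : (c.1, c'.2) = c' := Prod.ext h rfl
      have h3 : (⟨(c.1, c'.2), x, hx, hm⟩ : cells o ε r S) = ⟨c', x, hx, hc'⟩ := Subtype.ext h2
      rw [h3]
    · refine Adj.reachable ?_
      rw [comap_adj]
      exact (boxProd_adj).2 (Or.inl ⟨h, rfl⟩)
  exact h1.trans h2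

/-- **Cells lemma.** -/
theorem cells_connected {o : ℝ × ℝ} {ε : ℝ} (hε : 0 < ε) {r : ℕ} {S : Set (ℝ × ℝ)}
    (hS : IsPreconnected S) (hne : S.Nonempty) (hcov : S ⊆ ⋃ c : Fin r × Fin r, Sq o ε c) :
    ((grid r).induce (cells o ε r S)).Connected := by
  obtain ⟨x0, hx0⟩ := hne
  obtain ⟨c0, hc0⟩ := Set.mem_iUnion.1 (hcov hx0)
  rw [connected_iff_exists_forall_reachable]
  refine ⟨⟨c0, x0, hx0, hc0⟩, ?_⟩
  by_contra hcon
  push Not at hcon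
  obtain ⟨c1, hc1⟩ := hcon
  set I : Set (Fin r × Fin r) := {c | ∃ h : c ∈ cells o ε r S,
    ((grid r).induce (cells o ε r S)).Reachable ⟨c0, x0, hx0, hc0⟩ ⟨c, h⟩} with hI
  set J : Set (Fin r × Fin r) := {c | ∃ h : c ∈ cells o ε r S,
    ¬ ((grid r).induce (cells o ε r S)).Reachable ⟨c0, x0, hx0, hc0⟩ ⟨c, h⟩} with hJ
  have hIc : IsClosed (⋃ c ∈ I, Sq o ε c) :=
    (Set.toFinite I).isClosed_biUnion fun c _ => isClosed_Sq o ε c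
  have hJc : IsClosed (⋃ c ∈ J, Sq o ε c) :=
    (Set.toFinite J).isClosed_biUnion fun c _ => isClosed_Sq o ε c
  have hU : S ⊆ (⋃ c ∈ I, Sq o ε c) ∪ (⋃ c ∈ J, Sq o ε c) := by
    intro x hx
    obtain ⟨c, hc⟩ := Set.mem_iUnion.1 (hcov hx)
    by_cases h : ((grid r).induce (cells o ε r S)).Reachable ⟨c0, x0, hx0, hc0⟩ ⟨c, x, hx, hc⟩
    · exact Or.inl (Set.mem_biUnion (show c ∈ I from ⟨⟨x, hx, hc⟩, h⟩) hc)
    · exact Or.inr (Set.mem_biUnion (show c ∈ J from ⟨⟨x, hx, hc⟩, h⟩) hc)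
  have hSI : (S ∩ ⋃ c ∈ I, Sq o ε c).Nonempty :=
    ⟨x0, hx0, Set.mem_biUnion (show c0 ∈ I from ⟨⟨x0, hx0, hc0⟩, Reachable.refl _⟩) hc0⟩
  have hSJ : (S ∩ ⋃ c ∈ J, Sq o ε c).Nonempty := by
    obtain ⟨x1, hx1, hx1'⟩ := c1.2
    exact ⟨x1, hx1, Set.mem_biUnion (show c1.1 ∈ J from ⟨c1.2, hc1⟩) hx1'⟩
  obtain ⟨x, hx, hxI, hxJ⟩ := isPreconnected_closed_iff.1 hS _ _ hIc hJc hU hSI hSJ
  simp only [Set.mem_iUnion, exists_prop] at hxI hxJ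
  obtain ⟨c, ⟨h1, h2⟩, hc⟩ := hxI
  obtain ⟨c', ⟨h3, h4⟩, hc'⟩ := hxJ
  exact h4 (h2.trans (reach_of_common hε hx hc hc'))

/-- A point of the big square lies in one of the small squares. -/
lemma mem_Sq {o : ℝ × ℝ} {ε : ℝ} (hε : 0 < ε) {r : ℕ} {x : ℝ × ℝ}
    (h1 : o.1 ≤ x.1) (h2 : x.1 < o.1 + (r : ℝ) * ε) (h3 : o.2 ≤ x.2)
    (h4 : x.2 < o.2 + (r : ℝ) * ε) : ∃ c : Fin r × Fin r, x ∈ Sq o ε c := by
  have key : ∀ a y : ℝ, a ≤ y → y < a + (r : ℝ) * ε →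
      ∃ i : Fin r, y ∈ Set.Icc (a + (i.val : ℝ) * ε) (a + ((i.val : ℝ) + 1) * ε) := by
    intro a y ha hy
    have h0 : 0 ≤ (y - a) / ε := div_nonneg (by linarith) hε.le
    have hlt : (y - a) / ε < r := by rw [div_lt_iff₀ hε]; linarith
    refine ⟨⟨⌊(y - a) / ε⌋₊, (Nat.floor_lt h0).2 hlt⟩, ?_, ?_⟩
    · have h5 := Nat.floor_le h0
      rw [le_div_iff₀ hε] at h5
      simp only
      linarith
    · have h5 := (Nat.lt_floor_add_one ((y - a) / ε)).le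
      rw [div_le_iff₀ hε] at h5
      simp only
      linarith
  obtain ⟨i, hi⟩ := key _ _ h1 h2
  obtain ⟨j, hj⟩ := key _ _ h3 h4
  exact ⟨(i, j), hi, hj⟩

/-- Two points of the same square have distance at most `ε` (sup metric). -/
lemma dist_le_of_Sq {o : ℝ × ℝ} {ε : ℝ} {r : ℕ} {c : Fin r × Fin r} {x y : ℝ × ℝ}
    (hx : x ∈ Sq o ε c) (hy : y ∈ Sq o ε c) : dist x y ≤ ε := by
  rw [Prod.dist_eq, max_le_iff, Real.dist_eq, Real.dist_eq, abs_le, abs_le]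
  obtain ⟨⟨h1, h2⟩, h3, h4⟩ := hx
  obtain ⟨⟨h5, h6⟩, h7, h8⟩ := hy
  refine ⟨⟨?_, ?_⟩, ?_, ?_⟩ <;> linarith

end Vale.Agent.P235.H62
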